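import Vale.Agent.P305.R2.H299.Classes

/-! Maximum matching in time governed by induced matchings inside two parts. -/

set_option autoImplicit false

namespace Vale.Agent.P305.H299

open Vale.Agent.P305 Vale.Agent.P305.H287 Vale.Agent.P305.H529

variable {n : ℕ}

theorem split_le_two (G : SimpleGraph (Fin n)) (U : Set (Fin n)) :
    splitNumber G ≤ inducedMatchingIn G U + inducedMatchingIn G Uᶜ := by
  have h := split_le G (X := ∅) (U := U) (W := Uᶜ) (by simp)
  rwa [im_empty, zero_add] at h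

theorem two_mul_searches_le_split (G : SimpleGraph (Fin n)) :
    2 * searches G ≤ splitNumber G :=
  (two_mul_searches_le G).trans (oddPacking_le_split G)

/-- The split number is at most twice the rank distance to bipartite graphs. -/
theorem split_le_rank (G : SimpleGraph (Fin n)) : splitNumber G ≤ 2 * bipartiteRank G := by
  classical
  have hne : {k | ∃ (K : Type) (_ : Field K) (B : SimpleGraph (Fin n)), B.IsBipartite ∧
      k = (G.adjMatrix K - B.adjMatrix K).rank}.Nonempty :=
    ⟨_, ℚ, inferInstance, ⊥, ⟨SimpleGraph.Coloring.mk (fun _ => 0) fun h => h.elim⟩, rfl⟩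
  obtain ⟨K, hK, B, ⟨col⟩, hk⟩ := Nat.sInf_mem hne
  have h1 : ∀ c : Fin 2, Fits G {v | col v = c} (G.adjMatrix K - B.adjMatrix K) := by
    intro c u hu v hv huv
    have hB : ¬ B.Adj u v := fun h => col.valid h (Eq.trans hu (Eq.symm hv))
    rw [Matrix.sub_apply, SimpleGraph.adjMatrix_apply, SimpleGraph.adjMatrix_apply, if_neg hB,
      sub_zero]
    by_cases h : G.Adj u v <;> simp [h]
  have h2 : (∅ : Set (Fin n)) ∪ {v | col v = 0} ∪ {v | col v = 1} = Set.univ := by
    ext v
    have : col v = 0 ∨ col v = 1 := by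
      rcases col v with ⟨_ | _ | k, hk⟩
      · left; rfl
      · right; rfl
      · omega
    simpa using this
  have h3 := split_le G h2
  rw [im_empty, zero_add] at h3
  have h4 := in_le_rank G _ _ (h1 0)
  have h5 := in_le_rank G _ _ (h1 1)
  have h6 : bipartiteRank G = (G.adjMatrix K - B.adjMatrix K).rank := by
    unfold bipartiteRank
    convert hk
  omega

theorem SolvesUpTo.mono {P : Prog} {q q' T T' : ∀ n : ℕ, SimpleGraph (Fin n) → ℕ}
    (h : SolvesUpTo P q T) (hq : ∀ n G, q n G ≤ q' n G) (hT : ∀ n G, T n G ≤ T' n G) :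
    SolvesUpTo P q' T' := by
  obtain ⟨k, hk⟩ := h
  refine ⟨k, fun n G L => ?_⟩
  obtain ⟨t, s, M, e, ht, hM, hmax, hr⟩ := hk n G L
  exact ⟨t, s, M, e, ht.trans (hT n G), hM,
    fun M' hM' => (hmax M' hM').trans (Nat.add_le_add_left (hq n G) _), hr⟩

/-- Maximum matching in time governed by the split number. -/
theorem split_reduction (T : ℕ → ℕ → ℕ)
    (hT : ∀ n n' m m', n ≤ n' → m ≤ m' → T n m ≤ T n' m')
    (hP : ∃ P, Solves P (fun _ G => G.IsBipartite) (fun n G => T n G.edgeSet.ncard)) :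
    ∃ P C, Solves P (fun _ _ => True) (fun n G =>
      C * (T (2 * n) (2 * G.edgeSet.ncard) +
        (splitNumber G / 2 + 1) * ((Nat.log 2 n + 1) * (n + G.edgeSet.ncard + 1)))) := by
  obtain ⟨P, C, h⟩ := comp_reduction T hT hP
  refine ⟨P, C, h.mono (fun _ _ _ => trivial) fun n G _ => ?_⟩
  have h1 := two_mul_searches_le_split G
  have h2 : searches G + 1 ≤ splitNumber G / 2 + 1 := by omega
  exact Nat.mul_le_mul_left _ (Nat.add_le_add_left (Nat.mul_le_mul_right _ h2) _)

/-- One bipartite call gives a matching with at most half of the split number edges less than a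
maximum matching. -/
theorem split_approx (T : ℕ → ℕ → ℕ)
    (hT : ∀ n n' m m', n ≤ n' → m ≤ m' → T n m ≤ T n' m')
    (hP : ∃ P, Solves P (fun _ G => G.IsBipartite) (fun n G => T n G.edgeSet.ncard)) :
    ∃ P C, SolvesUpTo P (fun _ G => splitNumber G / 2) (fun n G =>
      C * (T (2 * n) (2 * G.edgeSet.ncard) + n + G.edgeSet.ncard + 1)) := by
  obtain ⟨P, C, h⟩ := apx_reductionW T hT hP
  refine ⟨P, C, SolvesUpTo.mono h (fun n G => ?_) fun _ _ => le_rfl⟩
  have h1 := two_mul_searches_le_split G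
  omega

/-- Almost-linear time when the split number is subpolynomial. -/
theorem split_almostLinear (hB : AlmostLinear fun _ G => G.IsBipartite) (κ : ℕ → ℕ)
    (hκ : ∀ ε : ℝ, 0 < ε → ∃ c : ℝ, ∀ N : ℕ, (κ N : ℝ) ≤ c * ((N : ℝ) + 1) ^ ε) :
    AlmostLinear fun n G => splitNumber G ≤ κ (n + G.edgeSet.ncard) := by
  obtain ⟨P, T, hP, hT⟩ := comp_almostLinear hB κ hκ
  refine ⟨P, T, hP.mono (fun n G h => ?_) fun _ _ _ => le_rfl, hT⟩
  have h1 := two_mul_searches_le_split G
  exact le_trans (by omega) h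

/-- Almost-linear time for an edge set `F` without large induced matchings, and packing number at
most one in every component after its deletion. -/
theorem edges_almostLinear (hB : AlmostLinear fun _ G => G.IsBipartite) (κ : ℕ → ℕ)
    (hκ : ∀ ε : ℝ, 0 < ε → ∃ c : ℝ, ∀ N : ℕ, (κ N : ℝ) ≤ c * ((N : ℝ) + 1) ^ ε) :
    AlmostLinear fun n G => ∃ F : SimpleGraph (Fin n),
      inducedMatchingOf G F ≤ κ (n + G.edgeSet.ncard) ∧
      ∀ K : G.ConnectedComponent, oddPackingIn (G \ F) K.supp ≤ 1 := by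
  obtain ⟨P, T, hP, hT⟩ := comp_almostLinear hB κ hκ
  refine ⟨P, T, hP.mono ?_ fun _ _ _ => le_rfl, hT⟩
  rintro n G ⟨F, hF, h⟩
  exact (searches_le_of_edges G F h).trans hF

theorem in_le_small {d : ℕ} (G : SimpleGraph (Fin n)) (U : Set (Fin n)) (h : IsSmall d G U) :
    inducedMatchingIn G U ≤ (2 * d - 1).choose d + d + 2 := by
  rcases h with h | h | h | ⟨K, hK, M, h, hr⟩
  · exact (in_le_choose G U h).trans (by omega)
  · exact (in_le_box G U h).trans (by omega)
  · exact (in_le_distance G U h).trans (by omega)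
  · exact ((in_le_rank G U M h).trans hr).trans (by omega)

/-- One bipartite call and a bounded number of searches for two parts of the same kinds. -/
theorem small_reduction (T : ℕ → ℕ → ℕ)
    (hT : ∀ n n' m m', n ≤ n' → m ≤ m' → T n m ≤ T n' m')
    (hP : ∃ P, Solves P (fun _ G => G.IsBipartite) (fun n G => T n G.edgeSet.ncard)) (d : ℕ) :
    ∃ P C, Solves P (fun n G => ∃ U : Set (Fin n), IsSmall d G U ∧ IsSmall d G Uᶜ)
      (fun n G => C * (T (2 * n) (2 * G.edgeSet.ncard) +
        (Nat.log 2 n + 1) * (n + G.edgeSet.ncard + 1))) := by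
  obtain ⟨P, C, h⟩ := split_reduction T hT hP
  refine ⟨P, C * ((2 * d - 1).choose d + d + 3), h.mono (fun _ _ _ => trivial) ?_⟩
  rintro n G ⟨U, hU, hU'⟩
  have h1 := in_le_small G U hU
  have h2 := in_le_small G Uᶜ hU'
  have h3 := split_le_two G U
  have h4 : splitNumber G / 2 + 1 ≤ (2 * d - 1).choose d + d + 3 := by omega
  set c := (2 * d - 1).choose d + d + 3
  have hc : 1 ≤ c := by omega
  rw [mul_assoc]
  refine Nat.mul_le_mul_left _ ?_
  generalize T (2 * n) (2 * G.edgeSet.ncard) = x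
  generalize (Nat.log 2 n + 1) * (n + G.edgeSet.ncard + 1) = y
  rw [Nat.mul_add]
  exact Nat.add_le_add (Nat.le_mul_of_pos_left _ hc) (Nat.mul_le_mul_right _ h4)

theorem small_almostLinear (hB : AlmostLinear fun _ G => G.IsBipartite) (d : ℕ) :
    AlmostLinear fun n G => ∃ U : Set (Fin n), IsSmall d G U ∧ IsSmall d G Uᶜ := by
  obtain ⟨P, T, hP, hT⟩ := split_almostLinear hB
    (fun _ => 2 * ((2 * d - 1).choose d + d + 2)) (fun ε hε => by
      refine ⟨((2 * ((2 * d - 1).choose d + d + 2) : ℕ) : ℝ), fun N => ?_⟩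
      have h1 : (1 : ℝ) ≤ ((N : ℝ) + 1) ^ ε :=
        Real.one_le_rpow (by have : (0 : ℝ) ≤ N := Nat.cast_nonneg _; linarith) hε.le
      exact le_mul_of_one_le_right (Nat.cast_nonneg _) h1)
  refine ⟨P, T, hP.mono ?_ fun _ _ _ => le_rfl, hT⟩
  rintro n G ⟨U, hU, hU'⟩
  have h1 := in_le_small G U hU
  have h2 := in_le_small G Uᶜ hU'
  have h3 := split_le_two G U
  show splitNumber G ≤ _
  omega

/-- Almost-linear time when the rank distance to bipartite graphs is subpolynomial. -/
theorem rank_almostLinear (hB : AlmostLinear fun _ G => G.IsBipartite) (κ : ℕ → ℕ)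
    (hκ : ∀ ε : ℝ, 0 < ε → ∃ c : ℝ, ∀ N : ℕ, (κ N : ℝ) ≤ c * ((N : ℝ) + 1) ^ ε) :
    AlmostLinear fun n G => bipartiteRank G ≤ κ (n + G.edgeSet.ncard) := by
  obtain ⟨P, T, hP, hT⟩ := comp_almostLinear hB κ hκ
  refine ⟨P, T, hP.mono (fun n G h => ?_) fun _ _ _ => le_rfl, hT⟩
  have h1 := two_mul_searches_le_split G
  have h2 := split_le_rank G
  exact le_trans (by omega) h

end Vale.Agent.P305.H299
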