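import Vale.Agent.P305.R2.H299.Theory
import Vale.Agent.P305.H529.Ball.Box
import Mathlib.Combinatorics.SimpleGraph.AdjMatrix

/-! Graphs with small induced matchings: low rank, disjoint sets, boxes. -/

set_option autoImplicit false

namespace Vale.Agent.P305.H299

open Vale.Agent.P305 Vale.Agent.P305.H287 Vale.Agent.P305.H529

section Bollobas

open Finset

variable {V ι : Type} [DecidableEq V] [DecidableEq ι]

theorem choose_step {a b : ℕ} :
    ((b : ℚ) + 1) * (1 / ((a + b).choose a : ℚ)) =
      ((a : ℚ) + b + 1) * (1 / ((a + (b + 1)).choose a : ℚ)) := by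
  have h1 : (a + b + 1) * (a + b).choose a = (a + (b + 1)).choose a * (b + 1) := by
    have h0 := Nat.add_one_mul_choose_eq (a + b) b
    have h1 : (a + b).choose a = (a + b).choose b := Nat.choose_symm_add
    have h2 : (a + (b + 1)).choose a = (a + (b + 1)).choose (b + 1) := Nat.choose_symm_add
    rw [h1, h2, show a + (b + 1) = a + b + 1 by ring, h0]
  have h2 : ((a + b).choose a : ℚ) ≠ 0 := by
    exact_mod_cast (Nat.choose_pos (Nat.le_add_right a b)).ne'
  have h3 : ((a + (b + 1)).choose a : ℚ) ≠ 0 := by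
    exact_mod_cast (Nat.choose_pos (Nat.le_add_right a (b + 1))).ne'
  rw [mul_one_div, mul_one_div, div_eq_div_iff h2 h3]
  have h4 : ((a + b + 1 : ℕ) : ℚ) * ((a + b).choose a : ℚ) =
      ((a + (b + 1)).choose a : ℚ) * ((b + 1 : ℕ) : ℚ) := by exact_mod_cast h1
  push_cast at h4
  linarith

/-- **Bollobás's inequality for set pairs.** -/
theorem bollobas (N : ℕ) : ∀ (X : Finset V), X.card = N → ∀ (I : Finset ι) (A B : ι → Finset V),
    (∀ i ∈ I, A i ⊆ X) → (∀ i ∈ I, B i ⊆ X) → (∀ i ∈ I, Disjoint (A i) (B i)) →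
    (∀ i ∈ I, ∀ j ∈ I, i ≠ j → ¬ Disjoint (A i) (B j)) →
    ∑ i ∈ I, (1 / (((A i).card + (B i).card).choose (A i).card : ℚ)) ≤ 1 := by
  induction N with
  | zero =>
    intro X hX I A B hA hB _ hne
    have hX0 : X = ∅ := card_eq_zero.1 hX
    subst hX0
    have hI : I.card ≤ 1 := by
      rw [card_le_one]
      intro i hi j hj
      by_contra hij
      apply hne i hi j hj hij
      rw [subset_empty.1 (hA i hi)]
      exact disjoint_empty_left _
    calc ∑ i ∈ I, (1 / (((A i).card + (B i).card).choose (A i).card : ℚ))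
        = ∑ i ∈ I, (1 : ℚ) := by
          refine sum_congr rfl fun i hi => ?_
          rw [subset_empty.1 (hA i hi), subset_empty.1 (hB i hi)]
          simp
      _ = I.card := by simp
      _ ≤ 1 := by exact_mod_cast hI
  | succ N ih =>
    intro X hX I A B hA hB hd hne
    by_cases hemp : ∃ j ∈ I, B j = ∅
    · obtain ⟨j, hj, hj0⟩ := hemp
      have hI : I = {j} := by
        ext i
        rw [mem_singleton]
        constructor
        · intro hi
          by_contra hij
          apply hne i hi j hj hij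
          rw [hj0]
          exact disjoint_empty_right _
        · rintro rfl
          exact hj
      rw [hI, sum_singleton, hj0]
      simp
    · push Not at hemp
      have hb : ∀ i ∈ I, 0 < (B i).card := fun i hi =>
        card_pos.2 (hemp i hi)
      -- the inequality for every `x`
      have hx : ∀ x ∈ X, ∑ i ∈ I, (if x ∈ A i then (0 : ℚ) else
          1 / (((A i).card + ((B i).erase x).card).choose (A i).card : ℚ)) ≤ 1 := by
        intro x hxX
        have h1 := ih (X.erase x) (by rw [card_erase_of_mem hxX, hX]; rfl)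
          (I.filter fun i => x ∉ A i) A (fun i => (B i).erase x)
          (by
            intro i hi
            rw [mem_filter] at hi
            intro y hy
            exact mem_erase.2 ⟨fun h => hi.2 (h ▸ hy), hA i hi.1 hy⟩)
          (by
            intro i hi
            rw [mem_filter] at hi
            exact erase_subset_erase _ (hB i hi.1))
          (by
            intro i hi
            rw [mem_filter] at hi
            exact (hd i hi.1).mono_right (erase_subset _ _))
          (by
            intro i hi j hj hij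
            rw [mem_filter] at hi hj
            have h2 := hne i hi.1 j hj.1 hij
            rw [not_disjoint_iff] at h2 ⊢
            obtain ⟨y, hyA, hyB⟩ := h2
            exact ⟨y, hyA, mem_erase.2 ⟨fun h => hi.2 (h ▸ hyA), hyB⟩⟩)
        rw [sum_filter] at h1
        refine le_trans (le_of_eq ?_) h1
        refine sum_congr rfl fun i _ => ?_
        by_cases h : x ∈ A i
        · rw [if_pos h, if_neg (not_not.2 h)]
        · rw [if_neg h, if_pos h]
      have hsum := sum_le_sum hx
      rw [sum_const, hX, nsmul_eq_mul, mul_one, sum_comm] at hsum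
      have hinner : ∀ i ∈ I, ∑ x ∈ X, (if x ∈ A i then (0 : ℚ) else
          1 / (((A i).card + ((B i).erase x).card).choose (A i).card : ℚ)) =
          (N + 1 : ℚ) * (1 / (((A i).card + (B i).card).choose (A i).card : ℚ)) := by
        intro i hi
        obtain ⟨b, hbb⟩ : ∃ b, (B i).card = b + 1 := ⟨(B i).card - 1, by have := hb i hi; omega⟩
        have hsub : A i ∪ B i ⊆ X := union_subset (hA i hi) (hB i hi)
        have hXd : X = (X \ (A i ∪ B i)) ∪ (A i ∪ B i) := (sdiff_union_of_subset hsub).symm
        have hcu : (A i ∪ B i).card = (A i).card + (b + 1) := by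
          rw [card_union_of_disjoint (hd i hi), hbb]
        have hcd : ((X \ (A i ∪ B i)).card : ℚ) = (N + 1) - ((A i).card + (b + 1)) := by
          have h1 := card_sdiff_add_card_eq_card hsub
          rw [hX, hcu] at h1
          have h2 : (((X \ (A i ∪ B i)).card + ((A i).card + (b + 1)) : ℕ) : ℚ) =
              ((N + 1 : ℕ) : ℚ) := by exact_mod_cast h1
          push_cast at h2
          linarith
        rw [hXd, sum_union sdiff_disjoint, sum_union (hd i hi)]
        have e1 : ∑ x ∈ X \ (A i ∪ B i), (if x ∈ A i then (0 : ℚ) else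
            1 / (((A i).card + ((B i).erase x).card).choose (A i).card : ℚ)) =
            ((X \ (A i ∪ B i)).card : ℚ) *
              (1 / (((A i).card + (b + 1)).choose (A i).card : ℚ)) := by
          rw [← nsmul_eq_mul, ← sum_const]
          refine sum_congr rfl fun x hx => ?_
          rw [mem_sdiff, mem_union, not_or] at hx
          rw [if_neg hx.2.1, erase_eq_of_notMem hx.2.2, hbb]
        have e2 : ∑ x ∈ A i, (if x ∈ A i then (0 : ℚ) else
            1 / (((A i).card + ((B i).erase x).card).choose (A i).card : ℚ)) = 0 :=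
          sum_eq_zero fun x hx => if_pos hx
        have e3 : ∑ x ∈ B i, (if x ∈ A i then (0 : ℚ) else
            1 / (((A i).card + ((B i).erase x).card).choose (A i).card : ℚ)) =
            ((b : ℚ) + 1) * (1 / (((A i).card + b).choose (A i).card : ℚ)) := by
          have h1 : ((b : ℚ) + 1) = (((B i).card : ℕ) : ℚ) := by rw [hbb]; push_cast; ring
          rw [h1, ← nsmul_eq_mul, ← sum_const]
          refine sum_congr rfl fun x hx => ?_
          have hxA : x ∉ A i := fun h => (disjoint_left.1 (hd i hi)) h hx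
          rw [if_neg hxA, card_erase_of_mem hx, hbb, Nat.add_sub_cancel]
        rw [e1, e2, e3, zero_add, choose_step, hcd, hbb]
        ring
      rw [sum_congr rfl hinner, ← mul_sum] at hsum
      push_cast at hsum
      have hN : (0 : ℚ) < N + 1 := by positivity
      by_contra hcon
      push Not at hcon
      have := mul_lt_mul_of_pos_left hcon hN
      rw [mul_one] at this
      linarith

end Bollobas

variable {n : ℕ}

theorem two_mul_choose (r : ℕ) (hr : 1 ≤ r) : (2 * r).choose r = 2 * (2 * r - 1).choose r := by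
  obtain ⟨m, rfl⟩ : ∃ m, r = m + 1 := ⟨r - 1, by omega⟩
  have h1 : 2 * (m + 1) = (2 * m + 1) + 1 := by ring
  have h2 : 2 * (m + 1) - 1 = 2 * m + 1 := by omega
  rw [h2, h1, Nat.choose_succ_succ, ← Nat.choose_symm_half m]
  ring

/-- Set pairs: at most `binom(2r - 1, r)` edges in an induced matching of a disjointness graph. -/
theorem in_le_choose {r : ℕ} (G : SimpleGraph (Fin n)) (W : Set (Fin n))
    (h : IsDisjointness r G W) : inducedMatchingIn G W ≤ (2 * r - 1).choose r := by
  classical
  obtain ⟨S, hS⟩ := h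
  refine in_le fun k a b h1 h2 => ?_
  rcases Nat.lt_or_ge k 2 with hk | hk
  · have : 0 < (2 * r - 1).choose r := Nat.choose_pos (by omega)
    omega
  -- the sets of different pairs meet
  have hab : ∀ i j, i ≠ j → ¬ Disjoint (S (a i)) (S (b j)) := fun i j hij hd => by
    have h3 := h2 i j hij (a i) (by simp) (b j) (by simp)
    exact h3.2 (((hS _ (h1 i).1).2 _ (h1 j).2.1 h3.1).2 hd)
  have haa : ∀ i j, i ≠ j → ¬ Disjoint (S (a i)) (S (a j)) := fun i j hij hd => by
    have h3 := h2 i j hij (a i) (by simp) (a j) (by simp)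
    exact h3.2 (((hS _ (h1 i).1).2 _ (h1 j).1 h3.1).2 hd)
  have hbb : ∀ i j, i ≠ j → ¬ Disjoint (S (b i)) (S (b j)) := fun i j hij hd => by
    have h3 := h2 i j hij (b i) (by simp) (b j) (by simp)
    exact h3.2 (((hS _ (h1 i).2.1).2 _ (h1 j).2.1 h3.1).2 hd)
  have hother : ∀ i : Fin k, ∃ j : Fin k, i ≠ j := by
    intro i
    by_cases h0 : i = ⟨0, by omega⟩
    · exact ⟨⟨1, by omega⟩, by rw [h0]; simp⟩
    · exact ⟨⟨0, by omega⟩, h0⟩
  have hea : ∀ i, ¬ Disjoint (S (a i)) (S (a i)) := by
    intro i hd
    obtain ⟨j, hj⟩ := hother i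
    rw [Finset.disjoint_self_iff_empty] at hd
    exact hab i j hj (by rw [hd]; exact Finset.disjoint_empty_left _)
  have heb : ∀ i, ¬ Disjoint (S (b i)) (S (b i)) := by
    intro i hd
    obtain ⟨j, hj⟩ := hother i
    rw [Finset.disjoint_self_iff_empty] at hd
    exact hbb i j hj (by rw [hd]; exact Finset.disjoint_empty_left _)
  have hd : ∀ i, Disjoint (S (a i)) (S (b i)) := fun i =>
    ((hS _ (h1 i).1).2 _ (h1 i).2.1 (h1 i).2.2.ne).1 (h1 i).2.2
  let A : Fin k × Bool → Finset ℕ := fun q => if q.2 then S (a q.1) else S (b q.1)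
  let B : Fin k × Bool → Finset ℕ := fun q => if q.2 then S (b q.1) else S (a q.1)
  have hA : ∀ q, (A q).card ≤ r := by
    rintro ⟨i, c⟩
    cases c
    · exact (hS _ (h1 i).2.1).1
    · exact (hS _ (h1 i).1).1
  have hB : ∀ q, (B q).card ≤ r := by
    rintro ⟨i, c⟩
    cases c
    · exact (hS _ (h1 i).1).1
    · exact (hS _ (h1 i).2.1).1
  have hBol := bollobas _ (Finset.univ.biUnion fun q : Fin k × Bool => A q ∪ B q) rfl
    (Finset.univ : Finset (Fin k × Bool)) A B
    (fun q _ v hv => Finset.mem_biUnion.2 ⟨q, Finset.mem_univ _, Finset.mem_union_left _ hv⟩)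
    (fun q _ v hv => Finset.mem_biUnion.2 ⟨q, Finset.mem_univ _, Finset.mem_union_right _ hv⟩)
    (by
      rintro ⟨i, c⟩ -
      cases c
      · exact (hd i).symm
      · exact hd i)
    (by
      rintro ⟨i, c⟩ - ⟨j, c'⟩ - hne
      by_cases hij : i = j
      · subst hij
        cases c <;> cases c'
        · exact absurd rfl hne
        · exact heb i
        · exact hea i
        · exact absurd rfl hne
      · cases c <;> cases c'
        · exact fun h => hab j i (Ne.symm hij) h.symm
        · exact hbb i j hij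
        · exact haa i j hij
        · exact hab i j hij)
  have hpos : (0 : ℚ) < ((2 * r).choose r : ℚ) := by
    exact_mod_cast Nat.choose_pos (by omega)
  have hle : ∀ q ∈ (Finset.univ : Finset (Fin k × Bool)), (1 / ((2 * r).choose r : ℚ)) ≤
      1 / (((A q).card + (B q).card).choose (A q).card : ℚ) := by
    intro q _
    have ha := hA q
    have hb := hB q
    apply one_div_le_one_div_of_le
    · exact_mod_cast Nat.choose_pos (Nat.le_add_right _ _)
    · have e1 : ((A q).card + (B q).card).choose (A q).card ≤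
          ((A q).card + r).choose (A q).card :=
        Nat.choose_le_choose _ (by omega)
      have e2 : ((A q).card + r).choose (A q).card = ((A q).card + r).choose r :=
        Nat.choose_symm_add
      have e3 : ((A q).card + r).choose r ≤ (2 * r).choose r :=
        Nat.choose_le_choose _ (by omega)
      exact_mod_cast (e1.trans e2.le).trans e3
  have h3 := (Finset.sum_le_sum hle).trans hBol
  rw [Finset.sum_const, nsmul_eq_mul, mul_one_div, div_le_one hpos, Finset.card_univ,
    Fintype.card_prod, Fintype.card_fin, Fintype.card_bool] at h3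
  have h4 : k * 2 ≤ (2 * r).choose r := by exact_mod_cast h3
  have hr : 1 ≤ r := by
    by_contra h0
    have h5 : r = 0 := by omega
    subst h5
    have h6 := (hS _ (h1 ⟨0, by omega⟩).1).1
    have h7 := hea ⟨0, by omega⟩
    rw [Nat.le_zero, Finset.card_eq_zero] at h6
    exact h7 (by rw [h6]; exact Finset.disjoint_empty_left _)
  rw [two_mul_choose r hr] at h4
  omega

theorem card_le_rank {K : Type} [Field K] {k : ℕ} (a b : Fin k → Fin n) (A : Finset (Fin k))
    (M : Matrix (Fin n) (Fin n) K) (h1 : ∀ i ∈ A, M (a i) (b i) ≠ 0)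
    (h2 : ∀ i ∈ A, ∀ j ∈ A, i ≠ j → M (a i) (b j) = 0) : A.card ≤ M.rank := by
  classical
  have hsub : M.submatrix (fun i : A => a i) (fun i : A => b i) =
      Matrix.diagonal fun i : A => M (a i) (b i) := by
    ext i j
    by_cases hij : i = j
    · subst hij
      simp
    · rw [Matrix.submatrix_apply, Matrix.diagonal_apply_ne _ hij]
      exact h2 _ i.2 _ j.2 fun h => hij (Subtype.ext h)
  have hr : (M.submatrix (fun i : A => a i) (fun i : A => b i)).rank = A.card := by
    rw [hsub, Matrix.rank_diagonal]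
    have : ∀ i : A, M (a i) (b i) ≠ 0 := fun i => h1 _ i.2
    simp [this]
  exact hr.symm.le.trans (Matrix.rank_submatrix_le M _ _)

/-- Rank bound for induced matchings of edges of `F`, which are covered by the nonzero entries of
matrices over any fields: the matrices are zero on the pairs of different non-adjacent vertices,
and arbitrary elsewhere. -/
theorem of_le_rank (G F : SimpleGraph (Fin n)) {r : ℕ} (K : Fin r → Type) [∀ j, Field (K j)]
    (M : ∀ j, Matrix (Fin n) (Fin n) (K j))
    (h1 : ∀ u v, F.Adj u v → G.Adj u v → ∃ j, M j u v ≠ 0 ∨ M j v u ≠ 0)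
    (h2 : ∀ u v, u ≠ v → ¬ G.Adj u v → ∀ j, M j u v = 0) :
    inducedMatchingOf G F ≤ ∑ j, (M j).rank := by
  classical
  refine csSup_le ⟨0, fun i => i.elim0, fun i => i.elim0, fun i => i.elim0, fun i => i.elim0⟩ ?_
  rintro k ⟨a, b, h3, h4⟩
  have h5 : ∀ i, ∃ j, M j (a i) (b i) ≠ 0 ∨ M j (b i) (a i) ≠ 0 := fun i =>
    h1 _ _ (h3 i).1 (h3 i).2
  choose c hc using h5
  let a' : Fin k → Fin n := fun i => if M (c i) (a i) (b i) ≠ 0 then a i else b i
  let b' : Fin k → Fin n := fun i => if M (c i) (a i) (b i) ≠ 0 then b i else a i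
  have ha' : ∀ i, a' i ∈ ({a i, b i} : Set (Fin n)) := by
    intro i
    by_cases h : M (c i) (a i) (b i) ≠ 0 <;> simp [a', h]
  have hb' : ∀ i, b' i ∈ ({a i, b i} : Set (Fin n)) := by
    intro i
    by_cases h : M (c i) (a i) (b i) ≠ 0 <;> simp [b', h]
  have hne : ∀ i, M (c i) (a' i) (b' i) ≠ 0 := by
    intro i
    by_cases h : M (c i) (a i) (b i) ≠ 0
    · have e1 : a' i = a i := if_pos h
      have e2 : b' i = b i := if_pos h
      rw [e1, e2]
      exact h
    · have e1 : a' i = b i := if_neg h
      have e2 : b' i = a i := if_neg h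
      rw [e1, e2]
      exact (hc i).resolve_left h
  have hz : ∀ i j, i ≠ j → ∀ l, M l (a' i) (b' j) = 0 := by
    intro i j hij l
    have h6 := h4 i j hij _ (ha' i) _ (hb' j)
    exact h2 _ _ h6.1 h6.2 l
  have hcard : k = ∑ l, (Finset.univ.filter fun i => c i = l).card := by
    have := Finset.card_eq_sum_card_fiberwise (f := c) (s := Finset.univ) (t := Finset.univ)
      (fun _ _ => Finset.mem_coe.2 (Finset.mem_univ _))
    simpa using this
  rw [hcard]
  refine Finset.sum_le_sum fun l _ => ?_
  refine card_le_rank a' b' _ (M l) ?_ ?_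
  · intro i hi
    have h6 := (Finset.mem_filter.1 hi).2
    rw [← h6]
    exact hne i
  · intro i _ j _ hij
    exact hz i j hij l

/-- Rank bound for induced matchings inside `W`. -/
theorem in_le_rank {K : Type} [Field K] (G : SimpleGraph (Fin n)) (W : Set (Fin n))
    (M : Matrix (Fin n) (Fin n) K) (hM : Fits G W M) : inducedMatchingIn G W ≤ M.rank := by
  classical
  refine in_le fun k a b h3 h4 => ?_
  have hsub : M.submatrix a b = Matrix.diagonal fun i => M (a i) (b i) := by
    ext i j
    by_cases hij : i = j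
    · subst hij
      simp
    · rw [Matrix.submatrix_apply, Matrix.diagonal_apply_ne _ hij]
      have h5 := h4 i j hij (a i) (by simp) (b j) (by simp)
      by_contra hne
      exact h5.2 ((hM _ (h3 i).1 _ (h3 j).2.1 h5.1).1 hne)
  have hr : (M.submatrix a b).rank = k := by
    rw [hsub, Matrix.rank_diagonal]
    have : ∀ i, M (a i) (b i) ≠ 0 := fun i =>
      (hM _ (h3 i).1 _ (h3 i).2.1 (h3 i).2.2.ne).2 (h3 i).2.2
    simp [this]
  exact hr.symm.le.trans (Matrix.rank_submatrix_le M a b)

/-- Points with different distance than one: the matrix of the squared distances minus one has rank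
at most `d + 2`. -/
theorem in_le_distance {d : ℕ} (G : SimpleGraph (Fin n)) (W : Set (Fin n))
    (h : IsCoUnitDistance d G W) : inducedMatchingIn G W ≤ d + 2 := by
  obtain ⟨p, hp⟩ := h
  let X : Matrix (Fin n) (Fin d ⊕ Fin 2) ℝ := fun u =>
    Sum.elim (fun i => -2 * p u i) ![(∑ i, p u i ^ 2) - 1, 1]
  let Y : Matrix (Fin d ⊕ Fin 2) (Fin n) ℝ := fun c v =>
    Sum.elim (fun i => p v i) ![1, ∑ i, p v i ^ 2] c
  have hXY : ∀ u v, (X * Y) u v = ∑ i, (p u i - p v i) ^ 2 - 1 := by
    intro u v
    rw [Matrix.mul_apply, Fintype.sum_sum_type]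
    simp only [X, Y, Sum.elim_inl, Sum.elim_inr, Fin.sum_univ_two, Matrix.cons_val_zero,
      Matrix.cons_val_one]
    have : ∑ i, (p u i - p v i) ^ 2 =
        ∑ i, (p u i ^ 2) + ∑ i, (-2 * p u i * p v i) + ∑ i, p v i ^ 2 := by
      rw [← Finset.sum_add_distrib, ← Finset.sum_add_distrib]
      exact Finset.sum_congr rfl fun i _ => by ring
    rw [this]
    ring
  have h1 : Fits G W (X * Y) := by
    intro u hu v hv huv
    rw [hXY, sub_ne_zero]
    exact (hp u hu v hv huv).symm
  refine (in_le_rank G W _ h1).trans ((Matrix.rank_mul_le_left X Y).trans ?_)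
  refine (Matrix.rank_le_card_width X).trans ?_
  rw [Fintype.card_sum, Fintype.card_fin, Fintype.card_fin]

/-- Boxes: an induced matching of the complement of a graph of boxicity `d` has at most `d`
edges. -/
theorem in_le_box {d : ℕ} (G : SimpleGraph (Fin n)) (W : Set (Fin n))
    (hW : IsCoBox d (G.induce W)) : inducedMatchingIn G W ≤ d := by
  obtain ⟨l, u, hlu, hadj⟩ := hW
  refine in_le fun k a b h1 h2 => ?_
  have key : ∀ i, ∃ (x y : W) (κ : Fin d), (x : Fin n) ∈ ({a i, b i} : Set (Fin n)) ∧
      (y : Fin n) ∈ ({a i, b i} : Set (Fin n)) ∧ u x κ < l y κ := by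
    intro i
    have h3 : (G.induce W).Adj ⟨a i, (h1 i).1⟩ ⟨b i, (h1 i).2.1⟩ := (h1 i).2.2
    obtain ⟨κ, h | h⟩ := box_disjoint (hlu _) (hlu _) ((hadj _ _ h3.ne).1 h3)
    · exact ⟨_, _, κ, by simp, by simp, h⟩
    · exact ⟨⟨b i, (h1 i).2.1⟩, ⟨a i, (h1 i).1⟩, κ, by simp, by simp, h⟩
  choose x y κ hx hy h using key
  have hmeet : ∀ i j, i ≠ j → ∀ κ, l (y j) κ ≤ u (x i) κ := by
    intro i j hij κ
    have h3 := h2 i j hij _ (hx i) _ (hy j)
    have hne : x i ≠ y j := fun h => h3.1 (congrArg Subtype.val h)
    exact box_meet (fun hd => h3.2 ((hadj _ _ hne).2 hd)) _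
  have hinj : Function.Injective κ := by
    intro i j hij
    by_contra hne
    have m1 := hmeet i j hne (κ i)
    have m2 := hmeet j i (Ne.symm hne) (κ i)
    have h1 := h i
    have h2 := h j
    rw [← hij] at h2
    linarith
  simpa using Fintype.card_le_of_injective κ hinj

/-- Complements of line graphs: the odd packing number is at most one. -/
theorem in_le_one_of_pairs (G : SimpleGraph (Fin n)) (W : Set (Fin n))
    (h : IsDisjointness 2 G W) : oddPackingIn G W ≤ 1 := by
  classical
  obtain ⟨S, hS⟩ := h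
  obtain ⟨T, hTW, hT⟩ := exists_oddPackingIn G W
  by_contra hk
  have h01 : (⟨0, by omega⟩ : Fin (oddPackingIn G W)) ≠ ⟨1, by omega⟩ := by simp
  -- a vertex of the second member
  have hne : (T ⟨1, by omega⟩).Nonempty := by
    by_contra hemp
    apply hT.1 ⟨1, by omega⟩
    exact ⟨SimpleGraph.Coloring.mk (fun _ => 0) fun {u v} _ => absurd ⟨u.1, u.2⟩ hemp⟩
  obtain ⟨v, hv⟩ := hne
  have hvW := hTW _ hv
  have hcard := (hS v hvW).1
  -- its set has at most two elements, which hit all sets of the first member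
  obtain ⟨x, y, hxy⟩ : ∃ x y, S v ⊆ {x, y} := by
    rcases Nat.lt_or_ge (S v).card 2 with h2 | h2
    · rcases Nat.lt_or_ge (S v).card 1 with h1 | h1
      · rw [Nat.lt_one_iff, Finset.card_eq_zero] at h1
        exact ⟨0, 0, by rw [h1]; exact Finset.empty_subset _⟩
      · obtain ⟨x, hx⟩ := Finset.card_eq_one.1 (le_antisymm (Nat.lt_succ_iff.1 h2) h1)
        exact ⟨x, x, by rw [hx]; simp⟩
    · obtain ⟨x, y, -, hxy⟩ := Finset.card_eq_two.1 (le_antisymm hcard h2)
      exact ⟨x, y, by rw [hxy]⟩
  have hhit : ∀ u ∈ T ⟨0, by omega⟩, x ∈ S u ∨ y ∈ S u := by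
    intro u hu
    have h3 := hT.2 _ _ h01 u hu v hv
    have h4 : ¬ Disjoint (S u) (S v) := fun hd => h3.2 (((hS u (hTW _ hu)).2 v hvW h3.1).2 hd)
    rw [Finset.not_disjoint_iff] at h4
    obtain ⟨z, hz1, hz2⟩ := h4
    have := hxy hz2
    rw [Finset.mem_insert, Finset.mem_singleton] at this
    rcases this with rfl | rfl
    · exact Or.inl hz1
    · exact Or.inr hz1
  apply hT.1 ⟨0, by omega⟩
  refine ⟨SimpleGraph.Coloring.mk (fun u => if x ∈ S u.1 then (0 : Fin 2) else 1)
    fun {u w} huw => ?_⟩
  have hadj : G.Adj u.1 w.1 := huw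
  have hd := ((hS u.1 (hTW _ u.2)).2 w.1 (hTW _ w.2) hadj.ne).1 hadj
  by_cases hu : x ∈ S u.1
  · have hw : x ∉ S w.1 := fun h => Finset.disjoint_left.1 hd hu h
    simp [hu, hw]
  · have hw : x ∈ S w.1 := by
      by_contra hw
      exact Finset.disjoint_left.1 hd ((hhit _ u.2).resolve_left hu) ((hhit _ w.2).resolve_left hw)
    simp [hu, hw]

end Vale.Agent.P305.H299
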