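import Vale.Agent.P305.H287.Defs
import Vale.Agent.P305.H529.Ball.Defs
import Mathlib.LinearAlgebra.Matrix.Rank
import Mathlib.Combinatorics.SimpleGraph.AdjMatrix

/-! Induced matchings inside the parts of a partition of the vertex set. -/

set_option autoImplicit false

namespace Vale.Agent.P305.H299

open Vale.Agent.P305 Vale.Agent.P305.H287

/-- No two of the pairs `a i, b i` (`i < k`) have a common vertex or are joined by an edge. -/
def Scattered {n : ℕ} (G : SimpleGraph (Fin n)) (k : ℕ) (a b : Fin k → Fin n) : Prop :=
  ∀ i j, i ≠ j → ∀ u ∈ ({a i, b i} : Set (Fin n)), ∀ v ∈ ({a j, b j} : Set (Fin n)),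
    u ≠ v ∧ ¬ G.Adj u v

/-- The largest number of edges of an induced matching of `G` all of whose edges are edges
of `F`. -/
noncomputable def inducedMatchingOf {n : ℕ} (G F : SimpleGraph (Fin n)) : ℕ :=
  sSup {k | ∃ a b : Fin k → Fin n,
    (∀ i, F.Adj (a i) (b i) ∧ G.Adj (a i) (b i)) ∧ Scattered G k a b}

/-- The induced matching number of the subgraph induced by `W`: the largest number of edges of an
induced matching of `G` all of whose edges have both endpoints in `W`. -/
noncomputable def inducedMatchingIn {n : ℕ} (G : SimpleGraph (Fin n)) (W : Set (Fin n)) : ℕ :=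
  sSup {k | ∃ a b : Fin k → Fin n,
    (∀ i, a i ∈ W ∧ b i ∈ W ∧ G.Adj (a i) (b i)) ∧ Scattered G k a b}

/-- The split number: the smallest value, over all sets `F` of edges whose deletion leaves a
bipartite graph, of the largest size of an induced matching of `G` all of whose edges are in `F`.
In other words, in a 2-colouring of the vertices, the largest size of an induced matching of
monochromatic edges. -/
noncomputable def splitNumber {n : ℕ} (G : SimpleGraph (Fin n)) : ℕ :=
  sInf {k | ∃ F : SimpleGraph (Fin n), (G \ F).IsBipartite ∧ k = inducedMatchingOf G F}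

/-- Off the diagonal, the entries of `M` for vertices of `W` are nonzero exactly for the adjacent
pairs. -/
def Fits {n : ℕ} {K : Type} [Field K] (G : SimpleGraph (Fin n)) (W : Set (Fin n))
    (M : Matrix (Fin n) (Fin n) K) : Prop :=
  ∀ u ∈ W, ∀ v ∈ W, u ≠ v → (M u v ≠ 0 ↔ G.Adj u v)

/-- The vertices of `W` are sets with at most `r` elements, and two different ones are adjacent iff
they are disjoint. -/
def IsDisjointness {n : ℕ} (r : ℕ) (G : SimpleGraph (Fin n)) (W : Set (Fin n)) : Prop :=
  ∃ S : Fin n → Finset ℕ, ∀ u ∈ W, (S u).card ≤ r ∧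
    ∀ v ∈ W, u ≠ v → (G.Adj u v ↔ Disjoint (S u) (S v))

/-- The vertices of `W` are points of `ℝ^d`, and two different ones are adjacent iff their distance
is not one. -/
def IsCoUnitDistance {n : ℕ} (d : ℕ) (G : SimpleGraph (Fin n)) (W : Set (Fin n)) : Prop :=
  ∃ p : Fin n → Fin d → ℝ, ∀ u ∈ W, ∀ v ∈ W, u ≠ v →
    (G.Adj u v ↔ ∑ i, (p u i - p v i) ^ 2 ≠ 1)

/-- `U` induces a graph of one of four kinds with parameter `d`: sets with at most `d` elements,
adjacent iff disjoint; the complement of a graph of boxicity at most `d`; points of `ℝ^d`, adjacent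
iff their distance is not one; the off-diagonal pattern of a matrix of rank at most `d`. -/
def IsSmall {n : ℕ} (d : ℕ) (G : SimpleGraph (Fin n)) (U : Set (Fin n)) : Prop :=
  IsDisjointness d G U ∨ H529.IsCoBox d (G.induce U) ∨ IsCoUnitDistance d G U ∨
    ∃ (K : Type) (_ : Field K) (M : Matrix (Fin n) (Fin n) K), Fits G U M ∧ M.rank ≤ d

/-- The rank distance to bipartite graphs: the smallest rank, over all fields, of the difference of
the adjacency matrices of `G` and of a bipartite graph on the same vertices. -/
noncomputable def bipartiteRank {n : ℕ} (G : SimpleGraph (Fin n)) : ℕ :=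
  open Classical in
  sInf {k | ∃ (K : Type) (_ : Field K) (B : SimpleGraph (Fin n)), B.IsBipartite ∧
    k = (G.adjMatrix K - B.adjMatrix K).rank}

end Vale.Agent.P305.H299
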