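import Vale.Agent.P305.R2.H299.DichDefs
import Vale.Agent.P305.R2.H299.Algo

/-! The dichotomy for partitions into induced subgraphs of a hereditary class. -/

set_option autoImplicit false

namespace Vale.Agent.P305.H299

open Vale.Agent.P305 Vale.Agent.P305.H287 Vale.Agent.P305.H529

variable {n : ℕ}

theorem exists_in (G : SimpleGraph (Fin n)) (W : Set (Fin n)) :
    ∃ a b : Fin (inducedMatchingIn G W) → Fin n,
      (∀ i, a i ∈ W ∧ b i ∈ W ∧ G.Adj (a i) (b i)) ∧ Scattered G _ a b :=
  Nat.sSup_mem (s := {k | ∃ a b : Fin k → Fin n,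
      (∀ i, a i ∈ W ∧ b i ∈ W ∧ G.Adj (a i) (b i)) ∧ Scattered G k a b})
    ⟨0, fun i => i.elim0, fun i => i.elim0, fun i => i.elim0, fun i => i.elim0⟩
    ⟨n, fun _ ⟨_, _, _, h⟩ => scattered_le h⟩

/-- A large induced matching inside a part gives a copy of the disjoint union of `k` edges. -/
theorem embed_matching {k : ℕ} (G : SimpleGraph (Fin n)) (p : Fin n → Prop)
    (h : k ≤ inducedMatchingIn G {v | p v}) :
    Nonempty (matchingGraph k ↪g (G.comap Subtype.val : SimpleGraph {v // p v})) := by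
  obtain ⟨a, b, h1, h2⟩ := exists_in G {v | p v}
  let e : Fin k → Fin (inducedMatchingIn G {v | p v}) := Fin.castLE h
  have he : Function.Injective e := Fin.castLE_injective h
  have hm : ∀ x : Fin k × Bool, (if x.2 then a (e x.1) else b (e x.1)) ∈
      ({a (e x.1), b (e x.1)} : Set (Fin n)) := by
    rintro ⟨i, c⟩
    cases c <;> simp
  have hp : ∀ x : Fin k × Bool, p (if x.2 then a (e x.1) else b (e x.1)) := by
    rintro ⟨i, c⟩
    cases c
    · exact (h1 (e i)).2.1
    · exact (h1 (e i)).1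
  refine ⟨⟨⟨fun x => ⟨if x.2 then a (e x.1) else b (e x.1), hp x⟩, ?_⟩, ?_⟩⟩
  · rintro ⟨i, c⟩ ⟨j, d⟩ hxy
    have hxy' := congrArg Subtype.val hxy
    by_cases hij : i = j
    · subst hij
      have hne := (h1 (e i)).2.2.ne
      cases c <;> cases d
      · rfl
      · exact absurd hxy'.symm hne
      · exact absurd hxy' hne
      · rfl
    · exact absurd hxy' (h2 (e i) (e j) (fun h => hij (he h)) _ (hm (i, c)) _ (hm (j, d))).1
  · rintro ⟨i, c⟩ ⟨j, d⟩
    show G.Adj (if c then a (e i) else b (e i)) (if d then a (e j) else b (e j)) ↔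
      (i = j ∧ c ≠ d)
    by_cases hij : i = j
    · subst hij
      have hadj := (h1 (e i)).2.2
      cases c <;> cases d
      · simp
      · simpa using hadj.symm
      · simpa using hadj
      · simp
    · constructor
      · intro hadj
        exact absurd hadj (h2 (e i) (e j) (fun h => hij (he h)) _ (hm (i, c)) _ (hm (j, d))).2
      · intro h
        exact absurd h.1 hij

theorem in_lt {H : GraphClass} (hH : Hereditary H) {k : ℕ}
    (hk : ¬ H (Fin k × Bool) (matchingGraph k)) (G : SimpleGraph (Fin n)) (p : Fin n → Prop)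
    (hp : H {v // p v} (G.comap Subtype.val)) : inducedMatchingIn G {v | p v} < k := by
  by_contra hcon
  exact hk (hH.1 _ _ _ _ (embed_matching G p (Nat.le_of_not_lt hcon)) hp)

theorem of_edgeless {H : GraphClass} (hH : Hereditary H) (h0 : HasEdgeless H) (G : SimpleGraph (Fin n)) (p : Fin n → Prop)
    (hno : ∀ u v, p u → p v → ¬ G.Adj u v) : H {v // p v} (G.comap Subtype.val) := by
  refine hH.1 _ _ _ _ ⟨⟨⟨Subtype.val, Subtype.val_injective⟩, ?_⟩⟩ (h0 n)
  intro u v
  constructor
  · intro h
    exact absurd h (by simp)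
  · intro h
    exact absurd h (hno _ _ u.2 v.2)

theorem of_matching {H : GraphClass} (hH : Hereditary H) (h1 : HasMatchings H) (G : SimpleGraph (Fin n)) (p : Fin n → Prop)
    (hu : ∀ u, p u → ∃! v, p v ∧ G.Adj u v) : H {v // p v} (G.comap Subtype.val) := by
  have hm : ∀ u : {v // p v}, ∃ v : {v // p v}, G.Adj u v ∧ ∀ w : {v // p v}, G.Adj u w → w = v := by
    rintro ⟨u, hp⟩
    obtain ⟨v, ⟨hv, huv⟩, huniq⟩ := hu u hp
    exact ⟨⟨v, hv⟩, huv, fun w hw => Subtype.ext (huniq _ ⟨w.2, hw⟩)⟩
  choose m hadj huniq using hm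
  have hmm : ∀ u, m (m u) = u := fun u => (huniq (m u) u (hadj u).symm).symm
  have hne : ∀ u, u.1 ≠ (m u).1 := fun u h => (hadj u).ne h
  refine hH.1 _ _ _ _ ⟨⟨⟨fun u => (min u.1 (m u).1, decide (u.1 < (m u).1)), ?_⟩, ?_⟩⟩ (h1 n)
  · intro u v huv
    obtain ⟨e1, e2⟩ := Prod.ext_iff.1 huv
    dsimp only at e1 e2
    have e3 : (u.1 < (m u).1 ↔ v.1 < (m v).1) := by simpa using e2
    by_cases h : u.1 < (m u).1
    · have h' := e3.1 h
      rw [min_eq_left h.le, min_eq_left h'.le] at e1
      exact Subtype.ext e1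
    · have h' : ¬ v.1 < (m v).1 := fun h' => h (e3.2 h')
      rw [min_eq_right (not_lt.1 h), min_eq_right (not_lt.1 h')] at e1
      have e4 : m u = m v := Subtype.ext e1
      rw [← hmm u, ← hmm v, e4]
  · intro u v
    show (min u.1 (m u).1 = min v.1 (m v).1 ∧ decide (u.1 < (m u).1) ≠ decide (v.1 < (m v).1)) ↔
      G.Adj u v
    constructor
    · rintro ⟨e1, e2⟩
      by_cases h : u.1 < (m u).1
      · have h' : ¬ v.1 < (m v).1 := fun h' => e2 (by simp [h, h'])
        rw [min_eq_left h.le, min_eq_right (not_lt.1 h')] at e1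
        have e3 : u = m v := Subtype.ext e1
        rw [e3]
        exact (hadj v).symm
      · have h' : v.1 < (m v).1 := by
          by_contra h'
          exact e2 (by simp [h, h'])
        rw [min_eq_right (not_lt.1 h), min_eq_left h'.le] at e1
        have e3 : m u = v := Subtype.ext e1
        rw [← e3]
        exact hadj u
    · intro h
      have e1 : v = m u := huniq u v h
      have e2 : u = m v := huniq v u h.symm
      refine ⟨?_, ?_⟩
      · rw [← e1, ← e2, min_comm]
      · rw [← e1, ← e2]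
        intro h'
        rw [decide_eq_decide] at h'
        rcases lt_or_gt_of_ne (h.ne : (u : Fin n) ≠ v) with h3 | h3
        · exact absurd (h'.1 h3) (lt_asymm h3)
        · exact absurd (h'.2 h3) (lt_asymm h3)

theorem of_empty {H : GraphClass} (hH : Hereditary H) (G : SimpleGraph (Fin n))
    (p : Fin n → Prop) (hp : ∀ v, ¬ p v) : H {v // p v} (G.comap Subtype.val) :=
  hH.1 _ _ _ _ ⟨⟨⟨fun v => absurd v.2 (hp v.1), fun v => absurd v.2 (hp v.1)⟩,
    fun {v} => absurd v.2 (hp v.1)⟩⟩ hH.2

/-- The disjoint union of `k` edges contains an edgeless graph. -/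
theorem HasMatchings.edgeless {H : GraphClass} (hH : Hereditary H) (h : HasMatchings H) :
    HasEdgeless H := by
  intro k
  refine hH.1 _ _ _ _ ⟨⟨⟨fun i => (i, true), fun i j h => (Prod.ext_iff.1 h).1⟩, ?_⟩⟩ (h k)
  intro i j
  constructor
  · intro h
    exact absurd rfl h.2
  · intro h
    exact absurd h (by simp)

/-- Every graph of the universal class can be partitioned, if the classes are hard. -/
theorem partitioned_of_comp3 {c : ℕ} {H : Fin c → GraphClass} (hH : ∀ i, Hereditary (H i))
    (hE : Hard H) (G : SimpleGraph (Fin n)) (hG : Comp3 n G) : Partitioned H n G := by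
  classical
  obtain ⟨-, I, hI, hm⟩ := hG
  rcases hE with ⟨i, j, l, hij, hil, hjl, hi, hj, hl⟩ | ⟨i, j, hij, hi, hj⟩
  · -- three independent sets
    have hm' : ∀ u : {v // v ∉ I}, ∃ v : {v // v ∉ I}, G.Adj u v ∧
        ∀ w : {v // v ∉ I}, G.Adj u w → w = v := by
      rintro ⟨u, hp⟩
      obtain ⟨v, ⟨hv, huv⟩, huniq⟩ := hm u hp
      exact ⟨⟨v, hv⟩, huv, fun w hw => Subtype.ext (huniq _ ⟨w.2, hw⟩)⟩
    choose m hadj huniq using hm'
    let f : Fin n → Fin c := fun v =>
      if h : v ∉ I then (if v < (m ⟨v, h⟩).1 then j else l) else i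
    have key : ∀ u v, f u = f v → ¬ G.Adj u v := by
      intro u v huv hadj'
      by_cases huI : u ∈ I
      · by_cases hvI : v ∈ I
        · exact hI u huI v hvI hadj'
        · have e1 : f u = i := by simp [f, huI]
          rw [e1] at huv
          simp only [f, dif_pos hvI] at huv
          split_ifs at huv
          · exact hij huv
          · exact hil huv
      · by_cases hvI : v ∈ I
        · have e1 : f v = i := by simp [f, hvI]
          rw [e1] at huv
          simp only [f, dif_pos huI] at huv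
          split_ifs at huv
          · exact hij huv.symm
          · exact hil huv.symm
        · have e1 : (⟨v, hvI⟩ : {v // v ∉ I}) = m ⟨u, huI⟩ := huniq _ _ hadj'
          have e2 : (⟨u, huI⟩ : {v // v ∉ I}) = m ⟨v, hvI⟩ := huniq _ _ hadj'.symm
          simp only [f, dif_pos huI, dif_pos hvI, ← e1, ← e2] at huv
          rcases lt_or_gt_of_ne hadj'.ne with h3 | h3
          · rw [if_pos h3, if_neg (lt_asymm h3)] at huv
            exact hjl huv
          · rw [if_neg (lt_asymm h3), if_pos h3] at huv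
            exact hjl huv.symm
    have hval : ∀ v, f v = i ∨ f v = j ∨ f v = l := by
      intro v
      by_cases hvI : v ∈ I
      · left
        simp [f, hvI]
      · right
        simp only [f, dif_pos hvI]
        split_ifs
        · left; rfl
        · right; rfl
    refine ⟨f, fun q => ?_⟩
    have hq : HasEdgeless (H q) → H q {v // f v = q} (G.comap Subtype.val) := fun h =>
      of_edgeless (hH q) h G _ fun u v hu hv => key u v (hu.trans hv.symm)
    by_cases e1 : q = i
    · exact hq (e1 ▸ hi)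
    by_cases e2 : q = j
    · exact hq (e2 ▸ hj)
    by_cases e3 : q = l
    · exact hq (e3 ▸ hl)
    refine of_empty (hH q) G _ fun v hv => ?_
    rcases hval v with h | h | h
    · exact e1 (hv.symm.trans h)
    · exact e2 (hv.symm.trans h)
    · exact e3 (hv.symm.trans h)
  · let f : Fin n → Fin c := fun v => if v ∈ I then j else i
    have e0 : ∀ v, f v = j ↔ v ∈ I := by
      intro v
      by_cases h : v ∈ I
      · simp [f, h]
      · simp [f, h, hij]
    have e1 : ∀ v, f v = i ↔ v ∉ I := by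
      intro v
      by_cases h : v ∈ I
      · simp [f, h, Ne.symm hij]
      · simp [f, h]
    refine ⟨f, fun q => ?_⟩
    by_cases h2 : q = j
    · subst h2
      exact of_edgeless (hH q) hj G _ fun u v hu hv => hI u ((e0 u).1 hu) v ((e0 v).1 hv)
    by_cases h3 : q = i
    · subst h3
      refine of_matching (hH q) hi G _ fun u hu => ?_
      obtain ⟨v, ⟨hv, huv⟩, huniq⟩ := hm u ((e1 u).1 hu)
      exact ⟨v, ⟨(e1 v).2 hv, huv⟩, fun w hw => huniq w ⟨(e1 w).1 hw.1, hw.2⟩⟩
    · refine of_empty (hH q) G _ fun v hv => ?_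
      by_cases h : v ∈ I
      · exact h2 (hv.symm.trans ((e0 v).2 h))
      · exact h3 (hv.symm.trans ((e1 v).2 h))

/-- A set of vertices, each part of which has no large independent set. -/
theorem im_le_sum {c : ℕ} {H : Fin c → GraphClass} (hH : ∀ i, Hereditary (H i))
    (G : SimpleGraph (Fin n)) (f : Fin n → Fin c)
    (hf : ∀ i, H i {v // f v = i} (G.comap Subtype.val)) (X : Set (Fin n)) (k : ℕ)
    (hX : ∀ v ∈ X, ¬ H (f v) (Fin k) ⊥) : inducedMatchingAt G X ≤ c * k := by
  classical
  refine csSup_le ⟨0, fun i => i.elim0, fun i => i.elim0, fun i => i.elim0, fun i => i.elim0⟩ ?_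
  rintro r ⟨v, b, h1, h2⟩
  have hsep : ∀ i j, i ≠ j → v i ≠ v j ∧ ¬ G.Adj (v i) (v j) := fun i j hij =>
    h2 i j hij _ (by simp) _ (by simp)
  have hcard : r = ∑ l, (Finset.univ.filter fun i => f (v i) = l).card := by
    have := Finset.card_eq_sum_card_fiberwise (f := fun i => f (v i))
      (s := Finset.univ) (t := Finset.univ) (fun _ _ => Finset.mem_coe.2 (Finset.mem_univ _))
    simpa using this
  rw [hcard]
  have hle : ∀ l ∈ (Finset.univ : Finset (Fin c)),
      (Finset.univ.filter fun i => f (v i) = l).card ≤ k := by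
    intro l _
    by_contra hcon
    set A := Finset.univ.filter fun i => f (v i) = l with hA
    have hkA : k ≤ A.card := by omega
    have hne : A.Nonempty := Finset.card_pos.1 (by omega)
    obtain ⟨i0, hi0⟩ := hne
    have hl : f (v i0) = l := (Finset.mem_filter.1 hi0).2
    have hk := hX (v i0) (h1 i0).1
    rw [hl] at hk
    let e := A.equivFin
    let g : Fin k → {w // f w = l} := fun i =>
      ⟨v (e.symm (Fin.castLE hkA i)).1, (Finset.mem_filter.1 (e.symm (Fin.castLE hkA i)).2).2⟩
    have hg : ∀ i j, i ≠ j → (g i).1 ≠ (g j).1 ∧ ¬ G.Adj (g i).1 (g j).1 := by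
      intro i j hij
      refine hsep _ _ fun h => hij ?_
      exact Fin.castLE_injective hkA (e.symm.injective (Subtype.ext h))
    refine hk ((hH l).1 _ _ _ _ ⟨⟨⟨g, ?_⟩, ?_⟩⟩ (hf l))
    · intro i j hij
      by_contra hne
      exact (hg i j hne).1 (congrArg Subtype.val hij)
    · intro i j
      constructor
      · intro h
        have h' : G.Adj (g i).1 (g j).1 := h
        by_cases hij : i = j
        · subst hij
          exact absurd rfl h'.ne
        · exact absurd h' (hg i j hij).2
      · intro h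
        exact absurd h (by simp)
  refine (Finset.sum_le_sum hle).trans ?_
  simp

theorem edgeless_mono {H : GraphClass} (hH : Hereditary H) {k k' : ℕ} (h : k ≤ k')
    (hk : H (Fin k') ⊥) : H (Fin k) ⊥ :=
  hH.1 _ _ _ _ ⟨⟨⟨Fin.castLE h, Fin.castLE_injective h⟩, by
    intro i j
    exact ⟨fun h => absurd h (by simp), fun h => absurd h (by simp)⟩⟩⟩ hk

/-- A bound for the packing number of an easy partition class. -/
theorem packing_of_easy {c : ℕ} {H : Fin c → GraphClass} (hH : ∀ i, Hereditary (H i))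
    (hE : Easy H) : ∃ N : ℕ, ∀ (n : ℕ) (G : SimpleGraph (Fin n)), Partitioned H n G →
      oddPacking G ≤ N := by
  classical
  obtain ⟨hM, hT⟩ := hE
  have h1 : ∀ i, ∃ k, ¬ H i (Fin k × Bool) (matchingGraph k) := fun i => by
    have := hM i
    unfold HasMatchings at this
    push Not at this
    exact this
  choose k1 hk1 using h1
  have h2 : ∀ i, ∃ k, ¬ HasEdgeless (H i) → ¬ H i (Fin k) ⊥ := fun i => by
    by_cases h : HasEdgeless (H i)
    · exact ⟨0, fun h' => absurd h h'⟩
    · have h' := h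
      unfold HasEdgeless at h'
      push Not at h'
      obtain ⟨k, hk⟩ := h'
      exact ⟨k, fun _ => hk⟩
  choose k2 hk2 using h2
  obtain ⟨a, b, hab⟩ : ∃ a b : Option (Fin c), ∀ l, HasEdgeless (H l) → some l = a ∨ some l = b := by
    by_cases h1 : ∃ i, HasEdgeless (H i)
    · obtain ⟨i, hi⟩ := h1
      by_cases h2 : ∃ j, i ≠ j ∧ HasEdgeless (H j)
      · obtain ⟨j, hij, hj⟩ := h2
        refine ⟨some i, some j, fun l hl => ?_⟩
        by_contra hcon
        push Not at hcon
        exact hT i j l hij (fun h => hcon.1 (congrArg some h.symm))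
          (fun h => hcon.2 (congrArg some h.symm)) ⟨hi, hj, hl⟩
      · refine ⟨some i, none, fun l hl => ?_⟩
        by_contra hcon
        push Not at hcon
        exact h2 ⟨l, fun h => hcon.1 (congrArg some h.symm), hl⟩
    · exact ⟨none, none, fun l hl => absurd ⟨l, hl⟩ h1⟩
  refine ⟨c * (∑ i, k2 i) + (∑ i, k1 i) + (∑ i, k1 i), ?_⟩
  rintro n G ⟨f, hf⟩
  have hin : ∀ o : Option (Fin c), inducedMatchingIn G {v | some (f v) = o} ≤ ∑ i, k1 i := by
    intro o
    cases o with
    | none =>
      refine in_le fun k u w h3 _ => ?_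
      by_contra hk
      exact absurd (h3 ⟨0, by omega⟩).1 (by simp)
    | some i =>
      have h3 := in_lt (hH i) (hk1 i) G (fun v => f v = i) (hf i)
      have h4 : k1 i ≤ ∑ i, k1 i :=
        Finset.single_le_sum (f := k1) (fun _ _ => Nat.zero_le _) (Finset.mem_univ i)
      have h5 : {v | some (f v) = some i} = {v | f v = i} := by
        ext v
        simp
      rw [h5]
      omega
  have hX := im_le_sum hH G f hf {v | ¬ (some (f v) = a ∨ some (f v) = b)} (∑ i, k2 i) (by
    intro v hv hcon
    have h3 : ¬ HasEdgeless (H (f v)) := fun h => hv (hab _ h)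
    refine hk2 _ h3 (edgeless_mono (hH _) ?_ hcon)
    exact Finset.single_le_sum (f := k2) (fun _ _ => Nat.zero_le _) (Finset.mem_univ (f v)))
  have hcov : {v | ¬ (some (f v) = a ∨ some (f v) = b)} ∪ {v | some (f v) = a} ∪
      {v | some (f v) = b} = (Set.univ : Set (Fin n)) := by
    ext v
    simp only [Set.mem_union, Set.mem_ofPred_eq, Set.mem_univ, iff_true]
    tauto
  have h6 := split_le G hcov
  have h7 := oddPacking_le_split G
  have h8 := hin a
  have h9 := hin b
  omega

/-- Easy partition classes take one bipartite call and `O((n + m) log n)` time. -/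
theorem easy_reduction {c : ℕ} {H : Fin c → GraphClass} (hH : ∀ i, Hereditary (H i))
    (hE : Easy H) (T : ℕ → ℕ → ℕ)
    (hT : ∀ n n' m m', n ≤ n' → m ≤ m' → T n m ≤ T n' m')
    (hP : ∃ P, Solves P (fun _ G => G.IsBipartite) (fun n G => T n G.edgeSet.ncard)) :
    ∃ P C, Solves P (Partitioned H) (fun n G => C * (T (2 * n) (2 * G.edgeSet.ncard) +
      (Nat.log 2 n + 1) * (n + G.edgeSet.ncard + 1))) := by
  obtain ⟨N, hN⟩ := packing_of_easy hH hE
  obtain ⟨P, C, h⟩ := comp_reduction T hT hP
  refine ⟨P, C * (N + 1), h.mono (fun _ _ _ => trivial) fun n G hG => ?_⟩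
  have h1 := hN n G hG
  have h2 := two_mul_searches_le G
  have h4 : searches G + 1 ≤ N + 1 := by omega
  have hc : 1 ≤ N + 1 := by omega
  rw [mul_assoc]
  refine Nat.mul_le_mul_left _ ?_
  generalize T (2 * n) (2 * G.edgeSet.ncard) = x
  generalize (Nat.log 2 n + 1) * (n + G.edgeSet.ncard + 1) = y
  rw [Nat.mul_add]
  exact Nat.add_le_add (Nat.le_mul_of_pos_left _ hc) (Nat.mul_le_mul_right _ h4)

theorem easy_almostLinear {c : ℕ} {H : Fin c → GraphClass} (hH : ∀ i, Hereditary (H i))
    (hE : Easy H) (hB : AlmostLinear fun _ G => G.IsBipartite) :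
    AlmostLinear (Partitioned H) := by
  obtain ⟨N, hN⟩ := packing_of_easy hH hE
  obtain ⟨P, T, hP, hT⟩ := comp_almostLinear hB (fun _ => N) (fun ε hε => by
      refine ⟨(N : ℝ), fun M => ?_⟩
      have h1 : (1 : ℝ) ≤ ((M : ℝ) + 1) ^ ε :=
        Real.one_le_rpow (by have : (0 : ℝ) ≤ M := Nat.cast_nonneg _; linarith) hε.le
      exact le_mul_of_one_le_right (Nat.cast_nonneg _) h1)
  refine ⟨P, T, hP.mono (fun n G hG => ?_) fun _ _ _ => le_rfl, hT⟩
  have h1 := hN n G hG
  have h2 := two_mul_searches_le G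
  show searches G ≤ _
  omega

/-- Hard partition classes are universal. -/
theorem hard_reduction {c : ℕ} {H : Fin c → GraphClass} (hH : ∀ i, Hereditary (H i))
    (hE : Hard H) (T : ℕ → ℕ → ℕ)
    (hP : ∃ P, Solves P (Partitioned H) (fun n G => T n G.edgeSet.ncard)) :
    ∃ P C, Solves P (fun _ _ => True) (fun n G =>
      C * (T (n + 2 * G.edgeSet.ncard) (5 * G.edgeSet.ncard) + n + G.edgeSet.ncard + 1)) := by
  obtain ⟨P, hP⟩ := hP
  exact all_of_comp3 T ⟨P, hP.mono (fun _ G hG => partitioned_of_comp3 hH hE G hG)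
    fun _ _ _ => le_rfl⟩

theorem hard_almostLinear {c : ℕ} {H : Fin c → GraphClass} (hH : ∀ i, Hereditary (H i))
    (hE : Hard H) : AlmostLinear (Partitioned H) ↔ AlmostLinear fun _ _ => True := by
  constructor
  · rintro ⟨P, T, hP, hT⟩
    exact almostLinear_comp3.1 ⟨P, T, hP.mono
      (fun _ G hG => partitioned_of_comp3 hH hE G hG) fun _ _ _ => le_rfl, hT⟩
  · rintro ⟨P, T, hP, hT⟩
    exact ⟨P, T, hP.mono (fun _ _ _ => trivial) fun _ _ _ => le_rfl, hT⟩

/-- The two cases, and the remaining one: one class contains all disjoint unions of edges, and all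
others omit an edgeless graph. -/
theorem easy_or_hard {c : ℕ} (H : Fin c → GraphClass) :
    Easy H ∨ Hard H ∨ ∃ i, HasMatchings (H i) ∧ ∀ j, i ≠ j → ¬ HasEdgeless (H j) := by
  by_cases h : ∃ i, HasMatchings (H i)
  · obtain ⟨i, hi⟩ := h
    by_cases h2 : ∃ j, i ≠ j ∧ HasEdgeless (H j)
    · obtain ⟨j, hij, hj⟩ := h2
      exact Or.inr (Or.inl (Or.inr ⟨i, j, hij, hi, hj⟩))
    · push Not at h2
      exact Or.inr (Or.inr ⟨i, hi, h2⟩)
  · push Not at h
    by_cases h2 : ∃ i j l, i ≠ j ∧ i ≠ l ∧ j ≠ l ∧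
        HasEdgeless (H i) ∧ HasEdgeless (H j) ∧ HasEdgeless (H l)
    · exact Or.inr (Or.inl (Or.inl h2))
    · refine Or.inl ⟨h, fun i j l hij hil hjl h3 => h2 ⟨i, j, l, hij, hil, hjl, h3⟩⟩

/-- For `c ≥ 2` copies of one class only the two cases occur. -/
theorem easy_or_hard_const {c : ℕ} (hc : 2 ≤ c) {H : GraphClass} (hH : Hereditary H) :
    Easy (fun _ : Fin c => H) ∨ Hard (fun _ : Fin c => H) := by
  rcases easy_or_hard (fun _ : Fin c => H) with h | h | ⟨i, hi, h⟩
  · exact Or.inl h
  · exact Or.inr h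
  · exfalso
    obtain ⟨j, hj⟩ : ∃ j : Fin c, i ≠ j := by
      by_cases h0 : i = ⟨0, by omega⟩
      · exact ⟨⟨1, by omega⟩, by rw [h0]; simp⟩
      · exact ⟨⟨0, by omega⟩, h0⟩
    exact h j hj (hi.edgeless hH)

/-- The criterion for copies of one class. -/
theorem easy_const_iff {c : ℕ} (hc : 2 ≤ c) {H : GraphClass} (hH : Hereditary H) :
    Easy (fun _ : Fin c => H) ↔ ¬ HasEdgeless H ∨ c = 2 ∧ ¬ HasMatchings H := by
  constructor
  · rintro ⟨h1, h2⟩
    have hM : ¬ HasMatchings H := h1 ⟨0, by omega⟩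
    by_cases hE : HasEdgeless H
    · right
      refine ⟨?_, hM⟩
      by_contra hc2
      exact h2 ⟨0, by omega⟩ ⟨1, by omega⟩ ⟨2, by omega⟩ (by simp) (by simp) (by simp)
        ⟨hE, hE, hE⟩
    · exact Or.inl hE
  · rintro (h | ⟨rfl, h⟩)
    · exact ⟨fun _ h' => h (h'.edgeless hH), fun _ _ _ _ _ _ h' => h h'.1⟩
    · refine ⟨fun _ => h, fun i j l hij hil hjl _ => ?_⟩
      have h1 := Fin.val_ne_of_ne hij
      have h2 := Fin.val_ne_of_ne hil
      have h3 := Fin.val_ne_of_ne hjl
      omega

end Vale.Agent.P305.H299
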