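import Vale.Agent.P305.Classes

/-! Graphs partitioned into induced subgraphs from hereditary classes. -/

set_option autoImplicit false

namespace Vale.Agent.P305.H299

/-- A class of graphs: a property of graphs on arbitrary vertex types. -/
abbrev GraphClass : Type 1 := ∀ V : Type, SimpleGraph V → Prop

/-- `H` is closed under taking induced subgraphs (and so under isomorphism), and not empty: it
contains the graph without vertices. -/
def Hereditary (H : GraphClass) : Prop :=
  (∀ (V W : Type) (G : SimpleGraph V) (G' : SimpleGraph W), Nonempty (G' ↪g G) → H V G → H W G') ∧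
  H Empty ⊥

/-- The disjoint union of `k` edges. -/
def matchingGraph (k : ℕ) : SimpleGraph (Fin k × Bool) where
  Adj x y := x.1 = y.1 ∧ x.2 ≠ y.2
  symm := ⟨fun _ _ h => ⟨h.1.symm, h.2.symm⟩⟩
  loopless := ⟨fun _ h => h.2 rfl⟩

/-- `H` contains all finite edgeless graphs. -/
def HasEdgeless (H : GraphClass) : Prop := ∀ k : ℕ, H (Fin k) ⊥

/-- `H` contains all disjoint unions of finitely many edges. -/
def HasMatchings (H : GraphClass) : Prop := ∀ k : ℕ, H (Fin k × Bool) (matchingGraph k)

/-- The vertices of `G` can be partitioned into `c` (possibly empty) parts, of which part `i`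
induces a graph in `H i`; the edges between different parts are arbitrary. -/
def Partitioned {c : ℕ} (H : Fin c → GraphClass) (n : ℕ) (G : SimpleGraph (Fin n)) : Prop :=
  ∃ f : Fin n → Fin c, ∀ i, H i {v // f v = i} (G.comap Subtype.val)

/-- No class contains all disjoint unions of edges, and at most two of the classes contain all
edgeless graphs. -/
def Easy {c : ℕ} (H : Fin c → GraphClass) : Prop :=
  (∀ i, ¬ HasMatchings (H i)) ∧
    ∀ i j l, i ≠ j → i ≠ l → j ≠ l → ¬ (HasEdgeless (H i) ∧ HasEdgeless (H j) ∧ HasEdgeless (H l))

/-- Three classes contain all edgeless graphs, or one class contains all disjoint unions of edges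
and another one all edgeless graphs. -/
def Hard {c : ℕ} (H : Fin c → GraphClass) : Prop :=
  (∃ i j l, i ≠ j ∧ i ≠ l ∧ j ≠ l ∧
    HasEdgeless (H i) ∧ HasEdgeless (H j) ∧ HasEdgeless (H l)) ∨
    ∃ i j, i ≠ j ∧ HasMatchings (H i) ∧ HasEdgeless (H j)

end Vale.Agent.P305.H299
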