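import Vale.Agent.P305.R2.H299.Defs
import Vale.Agent.P305.H529.Ball.Final

/-! The odd packing number and induced matchings inside two parts. -/

set_option autoImplicit false

namespace Vale.Agent.P305.H299

open Vale.Agent.P305 Vale.Agent.P305.H287 Vale.Agent.P305.H529

variable {n : ℕ}

theorem scattered_zero (G : SimpleGraph (Fin n)) (a b : Fin 0 → Fin n) : Scattered G 0 a b :=
  fun i => i.elim0

theorem scattered_le {G : SimpleGraph (Fin n)} {k : ℕ} {a b : Fin k → Fin n}
    (h : Scattered G k a b) : k ≤ n := by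
  have hinj : Function.Injective a := by
    intro i j hij
    by_contra hne
    exact (h i j hne (a i) (by simp) (a j) (by simp)).1 hij
  simpa using Fintype.card_le_of_injective a hinj

theorem le_of {G F : SimpleGraph (Fin n)} {k : ℕ} {a b : Fin k → Fin n}
    (h : ∀ i, F.Adj (a i) (b i) ∧ G.Adj (a i) (b i)) (hs : Scattered G k a b) :
    k ≤ inducedMatchingOf G F :=
  le_csSup ⟨n, fun _ ⟨_, _, _, h⟩ => scattered_le h⟩ ⟨a, b, h, hs⟩

theorem le_in {G : SimpleGraph (Fin n)} {W : Set (Fin n)} {k : ℕ} {a b : Fin k → Fin n}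
    (h : ∀ i, a i ∈ W ∧ b i ∈ W ∧ G.Adj (a i) (b i)) (hs : Scattered G k a b) :
    k ≤ inducedMatchingIn G W :=
  le_csSup ⟨n, fun _ ⟨_, _, _, h⟩ => scattered_le h⟩ ⟨a, b, h, hs⟩

theorem in_le {G : SimpleGraph (Fin n)} {W : Set (Fin n)} {c : ℕ}
    (h : ∀ (k : ℕ) (a b : Fin k → Fin n), (∀ i, a i ∈ W ∧ b i ∈ W ∧ G.Adj (a i) (b i)) →
      Scattered G k a b → k ≤ c) : inducedMatchingIn G W ≤ c :=
  csSup_le ⟨0, fun i => i.elim0, fun i => i.elim0, fun i => i.elim0, fun i => i.elim0⟩
    fun k ⟨a, b, h1, h2⟩ => h k a b h1 h2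

/-- Edges chosen inside the members of a packing are scattered. -/
theorem exists_scattered {k : ℕ} {G : SimpleGraph (Fin n)} {S : Fin k → Set (Fin n)}
    (hS : ∀ i j, i ≠ j → ∀ u ∈ S i, ∀ v ∈ S j, u ≠ v ∧ ¬ G.Adj u v)
    (R : Fin n → Fin n → Prop) (A : Finset (Fin k))
    (h : ∀ i ∈ A, ∃ u ∈ S i, ∃ v ∈ S i, R u v) :
    ∃ a b : Fin A.card → Fin n, (∀ i, R (a i) (b i)) ∧ Scattered G A.card a b := by
  classical
  let e := A.equivFin
  choose f hf g hg hfg using h
  refine ⟨fun i => f _ (e.symm i).2, fun i => g _ (e.symm i).2, fun i => hfg _ (e.symm i).2, ?_⟩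
  intro i j hij u hu v hv
  refine hS (e.symm i) (e.symm j) (fun h => hij (e.symm.injective (Subtype.ext h))) u ?_ v ?_
  · rcases hu with rfl | hu
    · exact hf _ (e.symm i).2
    · rw [Set.mem_singleton_iff] at hu
      subst hu
      exact hg _ (e.symm i).2
  · rcases hv with rfl | hv
    · exact hf _ (e.symm j).2
    · rw [Set.mem_singleton_iff] at hv
      subst hv
      exact hg _ (e.symm j).2

theorem card_le_of (G F : SimpleGraph (Fin n)) (M : Finset (Fin n × Fin n))
    (h1 : ∀ p ∈ M, F.Adj p.1 p.2 ∧ G.Adj p.1 p.2)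
    (h2 : ∀ p ∈ M, ∀ q ∈ M, p ≠ q → ∀ u ∈ ({p.1, p.2} : Set (Fin n)),
      ∀ v ∈ ({q.1, q.2} : Set (Fin n)), u ≠ v ∧ ¬ G.Adj u v) :
    M.card ≤ inducedMatchingOf G F := by
  let e := M.equivFin
  exact le_of (a := fun i => (e.symm i).1.1) (b := fun i => (e.symm i).1.2)
    (fun i => h1 _ (e.symm i).2) (fun i j hij => h2 _ (e.symm i).2 _ (e.symm j).2
      (fun h => hij (e.symm.injective (Subtype.ext h))))

/-- The members of a packing inside which there is an edge of `F` give an induced matching. -/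
theorem split_of {k : ℕ} (G F : SimpleGraph (Fin n)) (Y : Set (Fin n)) (S : Fin k → Set (Fin n))
    (hY : ∀ i, S i ⊆ Y) (hS : IsOddPacking G k S) : ∃ M : Finset (Fin n × Fin n),
      (∀ p ∈ M, F.Adj p.1 p.2 ∧ G.Adj p.1 p.2) ∧ (∀ p ∈ M, p.1 ∈ Y ∧ p.2 ∈ Y) ∧
      (∀ p ∈ M, ∀ q ∈ M, p ≠ q → ∀ u ∈ ({p.1, p.2} : Set (Fin n)),
        ∀ v ∈ ({q.1, q.2} : Set (Fin n)), u ≠ v ∧ ¬ G.Adj u v) ∧
      k ≤ M.card + oddPackingIn (G \ F) Y := by
  classical
  let A : Finset (Fin k) :=
    Finset.univ.filter fun i => ∃ u ∈ S i, ∃ v ∈ S i, F.Adj u v ∧ G.Adj u v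
  have h1 : ∀ i : A, ∃ u ∈ S i, ∃ v ∈ S i, F.Adj u v ∧ G.Adj u v := by
    rintro ⟨i, hi⟩
    exact (Finset.mem_filter.1 hi).2
  choose f hf g hg hfg using h1
  have hinj : Function.Injective fun i => (f i, g i) := by
    intro i j hij
    by_contra hne
    exact (hS.2 i j (fun h => hne (Subtype.ext h)) (f i) (hf i) (f j) (hf j)).1
      (congrArg Prod.fst hij)
  refine ⟨Finset.univ.image fun i => (f i, g i), ?_, ?_, ?_, ?_⟩
  · intro p hp
    obtain ⟨i, -, rfl⟩ := Finset.mem_image.1 hp
    exact hfg i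
  · intro p hp
    obtain ⟨i, -, rfl⟩ := Finset.mem_image.1 hp
    exact ⟨hY _ (hf i), hY _ (hg i)⟩
  · intro p hp q hq hpq u hu v hv
    obtain ⟨i, -, rfl⟩ := Finset.mem_image.1 hp
    obtain ⟨j, -, rfl⟩ := Finset.mem_image.1 hq
    have hne : (i : Fin k) ≠ j := fun h => hpq (by rw [Subtype.ext h])
    have hu' : u ∈ S i := by
      rcases hu with rfl | hu
      · exact hf _
      · rw [Set.mem_singleton_iff] at hu
        subst hu
        exact hg _
    have hv' : v ∈ S j := by
      rcases hv with rfl | hv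
      · exact hf _
      · rw [Set.mem_singleton_iff] at hv
        subst hv
        exact hg _
    exact hS.2 _ _ hne u hu' v hv'
  · rw [Finset.card_image_of_injective _ hinj, Finset.card_univ, Fintype.card_coe]
    have hB : Aᶜ.card ≤ oddPackingIn (G \ F) Y := by
      let e := (Aᶜ).equivFin
      refine le_oddPackingIn (S := fun i => S (e.symm i)) (fun i => hY _) ⟨fun i hbip => ?_,
        fun i j hij u hu v hv => ?_⟩
      · have h3 := (e.symm i).2
        rw [Finset.mem_compl] at h3
        apply hS.1 (e.symm i)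
        obtain ⟨col⟩ := hbip
        refine ⟨SimpleGraph.Coloring.mk (fun v => col v) fun {u v} huv => ?_⟩
        have hadj : G.Adj u.1 v.1 := huv
        apply col.valid
        show (G \ F).Adj u.1 v.1
        refine ⟨hadj, fun hF => h3 (Finset.mem_filter.2 ⟨Finset.mem_univ _, u.1, u.2, v.1, v.2,
          hF, hadj⟩)⟩
      · have h4 := hS.2 _ _ (fun h => hij (e.symm.injective (Subtype.ext h))) u hu v hv
        exact ⟨h4.1, fun h => h4.2 h.1⟩
    have hcard := Finset.card_add_card_compl A
    rw [Fintype.card_fin] at hcard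
    omega

/-- Deleting a set `F` of edges. -/
theorem in_le_of (G F : SimpleGraph (Fin n)) (Y : Set (Fin n)) :
    oddPackingIn G Y ≤ inducedMatchingOf G F + oddPackingIn (G \ F) Y := by
  obtain ⟨S, hSU, hS⟩ := exists_oddPackingIn G Y
  obtain ⟨M, h1, -, h2, h3⟩ := split_of G F Y S hSU hS
  exact h3.trans (Nat.add_le_add_right (card_le_of G F M h1 h2) _)

/-- If every component has packing number at most one after the deletion of `F`, then the surplus
is at most the size of an induced matching of edges of `F`. -/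
theorem surplus_le_of (G F : SimpleGraph (Fin n))
    (h : ∀ K : G.ConnectedComponent, oddPackingIn (G \ F) K.supp ≤ 1) :
    surplus G ≤ inducedMatchingOf G F := by
  classical
  have hex : ∀ K : G.ConnectedComponent, ∃ M : Finset (Fin n × Fin n),
      (∀ p ∈ M, F.Adj p.1 p.2 ∧ G.Adj p.1 p.2) ∧ (∀ p ∈ M, p.1 ∈ K.supp ∧ p.2 ∈ K.supp) ∧
      (∀ p ∈ M, ∀ q ∈ M, p ≠ q → ∀ u ∈ ({p.1, p.2} : Set (Fin n)),
        ∀ v ∈ ({q.1, q.2} : Set (Fin n)), u ≠ v ∧ ¬ G.Adj u v) ∧
      oddPackingIn G K.supp ≤ M.card + oddPackingIn (G \ F) K.supp := by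
    intro K
    obtain ⟨S, hSU, hS⟩ := exists_oddPackingIn G K.supp
    exact split_of G F K.supp S hSU hS
  choose M h1 h2 h3 h4 using hex
  unfold surplus
  refine le_trans (Finset.sum_le_sum (g := fun K : G.ConnectedComponent => (M K).card) ?_) ?_
  · intro K _
    have e1 := matchedIn_le_assignedIn G K.supp
    have e2 := h4 K
    have e3 := h K
    have e4 : oddPackingIn G K.supp + matchedIn G K.supp - assignedIn G K.supp ≤
        (M K).card + 1 := by omega
    have e5 : ((M K).card + 1) / 2 ≤ (M K).card := by omega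
    exact (Nat.div_le_div_right e4).trans e5
  · rw [← Finset.card_biUnion]
    · refine card_le_of G F _ ?_ ?_
      · intro p hp
        obtain ⟨K, -, hK⟩ := Finset.mem_biUnion.1 hp
        exact h1 K p hK
      · intro p hp q hq hpq u hu v hv
        obtain ⟨K, -, hK⟩ := Finset.mem_biUnion.1 hp
        obtain ⟨L, -, hL⟩ := Finset.mem_biUnion.1 hq
        by_cases hKL : K = L
        · subst hKL
          exact h3 K p hK q hL hpq u hu v hv
        · have k1 : G.connectedComponentMk u = K := by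
            rcases hu with rfl | hu
            · exact (h2 K p hK).1
            · rw [Set.mem_singleton_iff] at hu
              subst hu
              exact (h2 K p hK).2
          have k2 : G.connectedComponentMk v = L := by
            rcases hv with rfl | hv
            · exact (h2 L q hL).1
            · rw [Set.mem_singleton_iff] at hv
              subst hv
              exact (h2 L q hL).2
          refine ⟨?_, fun hadj => ?_⟩
          · rintro rfl
            exact hKL (k1.symm.trans k2)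
          · refine hKL ?_
            rw [← k1, ← k2]
            exact SimpleGraph.ConnectedComponent.sound hadj.reachable
    · intro K _ L _ hKL
      rw [Function.onFun, Finset.disjoint_left]
      intro p hp hp'
      have k1 : G.connectedComponentMk p.1 = K := (h2 K p hp).1
      have k2 : G.connectedComponentMk p.1 = L := (h2 L p hp').1
      exact hKL (k1.symm.trans k2)

theorem searches_le_of_edges (G F : SimpleGraph (Fin n))
    (h : ∀ K : G.ConnectedComponent, oddPackingIn (G \ F) K.supp ≤ 1) :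
    searches G ≤ inducedMatchingOf G F :=
  (searches_le_surplus G).trans (surplus_le_of G F h)

theorem split_nonempty (G : SimpleGraph (Fin n)) :
    {k | ∃ F : SimpleGraph (Fin n), (G \ F).IsBipartite ∧ k = inducedMatchingOf G F}.Nonempty :=
  ⟨_, ⊤, ⟨SimpleGraph.Coloring.mk (fun _ => 0) fun h => absurd h.1.ne h.2⟩, rfl⟩

/-- The odd packing number is at most the split number. -/
theorem oddPacking_le_split (G : SimpleGraph (Fin n)) : oddPacking G ≤ splitNumber G := by
  obtain ⟨F, hF, hk⟩ := Nat.sInf_mem (split_nonempty G)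
  have h1 := in_le_of G F Set.univ
  have h2 : oddPackingIn (G \ F) Set.univ = 0 := by
    refine in_bip _ _ ?_
    obtain ⟨col⟩ := hF
    exact ⟨SimpleGraph.Coloring.mk (fun v => col v) fun {u v} huv => col.valid huv⟩
  rw [h2, add_zero, oddPackingIn_univ] at h1
  exact h1.trans hk.ge

theorem split_le_of (G F : SimpleGraph (Fin n)) (h : (G \ F).IsBipartite) :
    splitNumber G ≤ inducedMatchingOf G F := Nat.sInf_le ⟨F, h, rfl⟩

/-- The split number and three parts, of which the last two are the classes of a 2-colouring. -/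
theorem split_le (G : SimpleGraph (Fin n)) {X U W : Set (Fin n)} (h : X ∪ U ∪ W = Set.univ) :
    splitNumber G ≤ inducedMatchingAt G X + inducedMatchingIn G U + inducedMatchingIn G W := by
  classical
  let F : SimpleGraph (Fin n) :=
    { Adj := fun u v => u ≠ v ∧ (u ∈ U ↔ v ∈ U)
      symm := ⟨fun u v h => ⟨h.1.symm, h.2.symm⟩⟩
      loopless := ⟨fun u h => h.1 rfl⟩ }
  have hF : (G \ F).IsBipartite := by
    refine ⟨SimpleGraph.Coloring.mk (fun v => if v ∈ U then (0 : Fin 2) else 1)
      fun {u v} huv => ?_⟩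
    have h1 : ¬ (u ∈ U ↔ v ∈ U) := fun h => huv.2 ⟨huv.1.ne, h⟩
    by_cases hu : u ∈ U <;> by_cases hv : v ∈ U <;> simp_all
  refine (split_le_of G F hF).trans ?_
  refine csSup_le ⟨0, fun i => i.elim0, fun i => i.elim0, fun i => i.elim0, fun i => i.elim0⟩ ?_
  rintro k ⟨a, b, h1, h2⟩
  let S : Fin k → Set (Fin n) := fun i => {a i, b i}
  have hS : ∀ i j, i ≠ j → ∀ u ∈ S i, ∀ v ∈ S j, u ≠ v ∧ ¬ G.Adj u v := h2
  let A : Finset (Fin k) := Finset.univ.filter fun i => a i ∈ X ∨ b i ∈ X
  let B : Finset (Fin k) := Finset.univ.filter fun i => a i ∈ U ∧ b i ∈ U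
  let C : Finset (Fin k) := Finset.univ.filter fun i => a i ∈ W ∧ b i ∈ W
  have hcover : A ∪ B ∪ C = Finset.univ := by
    refine Finset.eq_univ_of_forall fun i => ?_
    have ha : a i ∈ X ∪ U ∪ W := by rw [h]; trivial
    have hb : b i ∈ X ∪ U ∪ W := by rw [h]; trivial
    have hab := (h1 i).1.2
    simp only [A, B, C, Finset.mem_union, Finset.mem_filter, Finset.mem_univ, true_and]
    rw [Set.mem_union, Set.mem_union] at ha hb
    tauto
  have hcard : k ≤ A.card + B.card + C.card := by
    have h3 := Finset.card_union_le (A ∪ B) C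
    have h4 := Finset.card_union_le A B
    rw [hcover, Finset.card_univ, Fintype.card_fin] at h3
    omega
  have hA : A.card ≤ inducedMatchingAt G X := by
    obtain ⟨a', b', h3, h4⟩ := exists_scattered hS (fun u v => u ∈ X ∧ G.Adj u v) A
      (fun i hi => by
        rcases (Finset.mem_filter.1 hi).2 with h | h
        · exact ⟨a i, by simp [S], b i, by simp [S], h, (h1 i).2⟩
        · exact ⟨b i, by simp [S], a i, by simp [S], h, (h1 i).2.symm⟩)
    exact IsInducedMatchingAt.le ⟨h3, h4⟩
  have hB : B.card ≤ inducedMatchingIn G U := by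
    obtain ⟨a', b', h3, h4⟩ := exists_scattered hS (fun u v => u ∈ U ∧ v ∈ U ∧ G.Adj u v) B
      (fun i hi => ⟨a i, by simp [S], b i, by simp [S], (Finset.mem_filter.1 hi).2.1,
        (Finset.mem_filter.1 hi).2.2, (h1 i).2⟩)
    exact le_in h3 h4
  have hC : C.card ≤ inducedMatchingIn G W := by
    obtain ⟨a', b', h3, h4⟩ := exists_scattered hS (fun u v => u ∈ W ∧ v ∈ W ∧ G.Adj u v) C
      (fun i hi => ⟨a i, by simp [S], b i, by simp [S], (Finset.mem_filter.1 hi).2.1,
        (Finset.mem_filter.1 hi).2.2, (h1 i).2⟩)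
    exact le_in h3 h4
  omega

/-- Every odd cycle of `W₀ ∪ W₁` has an edge inside `W₀` or inside `W₁`. -/
theorem in_union_le (G : SimpleGraph (Fin n)) (U W : Set (Fin n)) :
    oddPackingIn G (U ∪ W) ≤ inducedMatchingIn G U + inducedMatchingIn G W := by
  classical
  obtain ⟨S, hSU, hS⟩ := exists_oddPackingIn G (U ∪ W)
  generalize oddPackingIn G (U ∪ W) = k at S hSU hS
  let A : Finset (Fin k) :=
    Finset.univ.filter fun i => ∃ u ∈ S i, ∃ v ∈ S i, u ∈ U ∧ v ∈ U ∧ G.Adj u v
  obtain ⟨a, b, h1, h2⟩ := exists_scattered hS.2 (fun u v => u ∈ U ∧ v ∈ U ∧ G.Adj u v) A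
    (fun i hi => (Finset.mem_filter.1 hi).2)
  obtain ⟨a', b', h1', h2'⟩ := exists_scattered hS.2 (fun u v => u ∈ W ∧ v ∈ W ∧ G.Adj u v) Aᶜ
    (fun i hi => by
      rw [Finset.mem_compl] at hi
      by_contra hcon
      apply hS.1 i
      refine ⟨SimpleGraph.Coloring.mk (fun v => if v.1 ∈ U then (0 : Fin 2) else 1)
        fun {u v} huv => ?_⟩
      have hadj : G.Adj u.1 v.1 := huv
      have hu := hSU i u.2
      have hv := hSU i v.2
      by_cases hu' : u.1 ∈ U
      · by_cases hv' : v.1 ∈ U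
        · exact absurd (Finset.mem_filter.2 ⟨Finset.mem_univ _, u.1, u.2, v.1, v.2, hu', hv',
            hadj⟩) hi
        · simp [hu', hv']
      · by_cases hv' : v.1 ∈ U
        · simp [hu', hv']
        · exact absurd ⟨u.1, u.2, v.1, v.2, hu.resolve_left hu', hv.resolve_left hv', hadj⟩
            hcon)
  have hA := le_in h1 h2
  have hB := le_in h1' h2'
  have hcard := Finset.card_add_card_compl A
  rw [Fintype.card_fin] at hcard
  omega

end Vale.Agent.P305.H299
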